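import Vale.Agent.P183.LeSeven
import Vale.Agent.P183.WingedInterval
import Vale.Agent.P183.Int2

/-!
# P183: small lattices and closure theorems in one statement

1. Every lattice with at most seven elements is representable.
2. The seven-element lattice left open by DeMeo (2012) is an interval in the subgroup lattice of
   a finite group.
3. Multiplication of intervals `[a s, b s]` of an arbitrary representable lattice, all `b s` meets
   of meet-prime elements, by arbitrary representable lattices `M s`.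
4. The dual statement.
5. Inflation of meets of meet-prime elements of arbitrary representable lattices, and
6. of joins of join-prime elements.
7. Lexicographic sums over finite distributive lattices.
8. Inflation of coatoms over finite algebras with a compatible Mal'cev function.
9. `(q+1)`-fold parallel sums, `q` a prime power.
-/

namespace Vale.Agent.Results.P183.BothParts

open _root_.P183

theorem result :
    (∀ (L : Type) [Lattice L] [Fintype L] [Nonempty L], Fintype.card L ≤ 7 →
      Representable L) ∧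
    (∃ (G : Type) (_ : Group G) (_ : Finite G) (H : Subgroup G)
      (e : Fin 7 ≃ {K : Subgroup G // H ≤ K}), ∀ i j : Fin 7, e i ≤ e j ↔
        (i = j ∨ i = 0 ∨ j = 6 ∨ (i = 1 ∧ j = 2) ∨ (i = 1 ∧ j = 3) ∨ (i = 4 ∧ j = 2))) ∧
    (∀ (K : Type) [Lattice K], Representable K → ∀ (I : Type) [Finite I] (a b : I → K),
      (∀ s x, (∀ p, InfPrime p → b s ≤ p → x ≤ p) → x ≤ b s) →
      ∀ (M : I → Type) [∀ s, Lattice (M s)], (∀ s, Representable (M s)) →
      ∀ (L : Type) [Lattice L],
      Nonempty (L ≃o {x : K × (∀ s, M s) // ∀ s, (¬ a s ≤ x.1 → IsBot (x.2 s)) ∧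
        (a s ≤ x.1 → ¬ x.1 ≤ b s → IsTop (x.2 s))}) → Representable L) ∧
    (∀ (K : Type) [Lattice K], Representable K → ∀ (I : Type) [Finite I] (a b : I → K),
      (∀ s x, (∀ p, SupPrime p → p ≤ a s → p ≤ x) → a s ≤ x) →
      ∀ (M : I → Type) [∀ s, Lattice (M s)], (∀ s, Representable (M s)) →
      ∀ (L : Type) [Lattice L],
      Nonempty (L ≃o {x : K × (∀ s, M s) // ∀ s, (¬ x.1 ≤ b s → IsTop (x.2 s)) ∧
        (x.1 ≤ b s → ¬ a s ≤ x.1 → IsBot (x.2 s))}) → Representable L) ∧
    (∀ (K : Type) [Lattice K], Representable K → ∀ (M : K → Type) [∀ a, Lattice (M a)],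
      (∀ a, Representable (M a)) →
      (∀ a, Subsingleton (M a) ∨ ∀ b, (∀ p, InfPrime p → a ≤ p → b ≤ p) → b ≤ a) →
      ∀ (L : Type) [Lattice L], Nonempty (L ≃o Σₗ a, M a) → Representable L) ∧
    (∀ (K : Type) [Lattice K], Representable K → ∀ (M : K → Type) [∀ a, Lattice (M a)],
      (∀ a, Representable (M a)) →
      (∀ a, Subsingleton (M a) ∨ ∀ b, (∀ p, SupPrime p → p ≤ a → p ≤ b) → a ≤ b) →
      ∀ (L : Type) [Lattice L], Nonempty (L ≃o Σₗ a, M a) → Representable L) ∧
    (∀ (D : Type) [DistribLattice D] [Finite D] [Nonempty D] (M : D → Type)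
      [∀ d, Lattice (M d)], (∀ d, Representable (M d)) →
      ∀ (L : Type) [Lattice L], Nonempty (L ≃o Σₗ d, M d) → Representable L) ∧
    (∀ (A : Type) [Finite A] [Nonempty A] (k : ℕ) (ar : Fin k → ℕ)
      (op : ∀ i : Fin k, (Fin (ar i) → A) → A) (mal : A → A → A → A),
      (∀ x y, mal x y y = x) → (∀ x y, mal x x y = y) →
      (∀ r : Setoid A, IsCong ar op r → ∀ x x' y y' z z', r x x' → r y y' → r z z' →
        r (mal x y z) (mal x' y' z')) →
      ∀ (M : {r : Setoid A // IsCong ar op r} → Type) [∀ r, Lattice (M r)],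
      (∀ r, Representable (M r)) →
      (∀ r, ¬ Subsingleton (M r) →
        r.1 ≠ ⊤ ∧ ∀ s : {s : Setoid A // IsCong ar op s}, r < s → s.1 = ⊤) →
      ∀ (L : Type) [Lattice L], Nonempty (L ≃o Σₗ r, M r) → Representable L) ∧
    (∀ q : ℕ, IsPrimePow q → ∀ (M : Fin (q + 1) → Type) [∀ i, Lattice (M i)],
      (∀ i, Representable (M i)) →
      ∀ (L : Type) [Lattice L], Nonempty (L ≃o WithBot (WithTop (Σ i, M i))) →
        Representable L) :=
  ⟨fun L _ _ _ h => leSeven L h,
   winged_interval,
   fun K _ hK I _ a b hp M _ hM L _ e => intervalMul hK a b hp M hM L e.some,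
   fun K _ hK I _ a b hp M _ hM L _ e => intervalMul' hK a b hp M hM L e.some,
   fun K _ hK M _ hM hp L _ e => primeSum hK M hM hp L e.some,
   fun K _ hK M _ hM hp L _ e => primeSum' hK M hM hp L e.some,
   fun D _ _ _ M _ hM L _ e => lexSum D M hM L e.some,
   fun A _ _ k ar op mal m1 m2 m3 M _ hM hco L _ e =>
    inflation A k ar op mal m1 m2 m3 M hM hco L e.some,
   fun q hq M _ hM L _ e => parallel q hq M hM L e.some⟩

end Vale.Agent.Results.P183.BothParts
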