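import Vale.Agent.P183.Lex2

/-!
P183 (finite lattice representation problem): three closure theorems.
-/

namespace Vale.Agent.Results.P183.Inflation

open _root_.P183

theorem result :
    (∀ (A : Type) [Finite A] [Nonempty A] (k : ℕ) (ar : Fin k → ℕ)
      (op : ∀ i : Fin k, (Fin (ar i) → A) → A) (mal : A → A → A → A),
      (∀ x y, mal x y y = x) → (∀ x y, mal x x y = y) →
      (∀ r : Setoid A, IsCong ar op r → ∀ x x' y y' z z', r x x' → r y y' → r z z' →
        r (mal x y z) (mal x' y' z')) →
      ∀ (M : {r : Setoid A // IsCong ar op r} → Type) [∀ r, Lattice (M r)],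
      (∀ r, Representable (M r)) →
      (∀ r, ¬ Subsingleton (M r) →
        r.1 ≠ ⊤ ∧ ∀ s : {s : Setoid A // IsCong ar op s}, r < s → s.1 = ⊤) →
      ∀ (L : Type) [Lattice L], Nonempty (L ≃o Σₗ r, M r) → Representable L) ∧
    (∀ q : ℕ, IsPrimePow q → ∀ (M : Fin (q + 1) → Type) [∀ i, Lattice (M i)],
      (∀ i, Representable (M i)) →
      ∀ (L : Type) [Lattice L], Nonempty (L ≃o WithBot (WithTop (Σ i, M i))) →
        Representable L) ∧
    (∀ (D : Type) [DistribLattice D] [Finite D] [Nonempty D] (M : D → Type)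
      [∀ d, Lattice (M d)], (∀ d, Representable (M d)) →
      ∀ (L : Type) [Lattice L], Nonempty (L ≃o Σₗ d, M d) → Representable L) :=
  ⟨fun A _ _ k ar op mal m1 m2 m3 M _ hM hco L _ e =>
    inflation A k ar op mal m1 m2 m3 M hM hco L e.some,
   fun q hq M _ hM L _ e => parallel q hq M hM L e.some,
   fun D _ _ _ M _ hM L _ e => lexSum D M hM L e.some⟩

end Vale.Agent.Results.P183.Inflation
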