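import Vale.Agent.P183.LeSeven

/-!
# P183: every lattice with at most seven elements is representable

This settles the one seven-element lattice left open by DeMeo (2012), the lattice `1 < 2`,
`1 < 3`, `4 < 2` together with an isolated element (and bottom and top): it is the interval
`[SL(2,2), SL(2,64)]`.
-/

theorem Vale.Agent.Results.P183.LeSeven.result (L : Type) [Lattice L] [Fintype L] [Nonempty L]
    (h : Fintype.card L ≤ 7) : P183.Representable L :=
  P183.leSeven L h
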